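import Vale.Agent.H23.Potts.Kron

/-
Polynomial certificates for the three state Potts merge inequalities.
-/

namespace Vale.Agent.H23.Potts

open PE

/-- subtraction -/
def psub {k : ℕ} (a b : PE k) : PE k := PE.add a (PE.neg b)
/-- square -/
def psq {k : ℕ} (a : PE k) : PE k := PE.mul a a
/-- cube -/
def pcu {k : ℕ} (a : PE k) : PE k := PE.mul (PE.mul a a) a
/-- sum of three -/
def ps3 {k : ℕ} (a b c : PE k) : PE k := PE.add (PE.add a b) c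
/-- quadratic form -/
def pq2 {k : ℕ} (a b c : PE k) : PE k :=
  psub (ps3 (psq a) (psq b) (psq c)) (ps3 (PE.mul a b) (PE.mul b c) (PE.mul c a))
/-- cubic form -/
def pc3 {k : ℕ} (a b c : PE k) : PE k :=
  PE.mul (PE.mul (psub (PE.mul (PE.cst 3) a) (ps3 a b c)) (psub (PE.mul (PE.cst 3) b) (ps3 a b c)))
    (psub (PE.mul (PE.cst 3) c) (ps3 a b c))

/-- numerator `25 c3 z - 37 q2^2` -/
def pnum {k : ℕ} (a b c : PE k) : PE k :=
  psub (PE.mul (PE.mul (PE.cst 25) (pc3 a b c)) (ps3 a b c)) (PE.mul (PE.cst 37) (psq (pq2 a b c)))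

/-- left side sum over the three rotations -/
def pL {k : ℕ} (x0 x1 x2 y0 y1 y2 : PE k) : PE k :=
  let a0 := PE.mul x0 y0; let a1 := PE.mul x1 y1; let a2 := PE.mul x2 y2
  let b0 := PE.mul x0 y1; let b1 := PE.mul x1 y2; let b2 := PE.mul x2 y0
  let c0 := PE.mul x0 y2; let c1 := PE.mul x1 y0; let c2 := PE.mul x2 y1
  ps3 (PE.mul (pnum a0 a1 a2) (PE.mul (pcu (ps3 b0 b1 b2)) (pcu (ps3 c0 c1 c2))))
    (PE.mul (pnum b0 b1 b2) (PE.mul (pcu (ps3 c0 c1 c2)) (pcu (ps3 a0 a1 a2))))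
    (PE.mul (pnum c0 c1 c2) (PE.mul (pcu (ps3 a0 a1 a2)) (pcu (ps3 b0 b1 b2))))

/-- product of the cubes of the three normalisations -/
def pD {k : ℕ} (x0 x1 x2 y0 y1 y2 : PE k) : PE k :=
  PE.mul (PE.mul (pcu (ps3 (PE.mul x0 y0) (PE.mul x1 y1) (PE.mul x2 y2)))
    (pcu (ps3 (PE.mul x0 y1) (PE.mul x1 y2) (PE.mul x2 y0))))
    (pcu (ps3 (PE.mul x0 y2) (PE.mul x1 y0) (PE.mul x2 y1)))

/-- fifth power -/
def pfi {k : ℕ} (a : PE k) : PE k := PE.mul (psq a) (pcu a)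

/-- one of the two right side terms -/
def pR {k : ℕ} (x0 x1 x2 y0 y1 y2 : PE k) : PE k :=
  PE.mul (PE.mul (pcu (psub (psq (ps3 y0 y1 y2)) (pq2 y0 y1 y2))) (pnum x0 x1 x2))
    (psq (ps3 x0 x1 x2))

/-- the whole polynomial -/
def pI {k : ℕ} (x0 x1 x2 y0 y1 y2 : PE k) : PE k :=
  psub (PE.mul (PE.mul (pfi (ps3 x0 x1 x2)) (pfi (ps3 y0 y1 y2))) (pL x0 x1 x2 y0 y1 y2))
    (PE.mul (PE.add (pR x0 x1 x2 y0 y1 y2) (pR y0 y1 y2 x0 x1 x2)) (pD x0 x1 x2 y0 y1 y2))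

/-- ordered coordinates -/
def e0 : PE 4 := PE.add (PE.add (PE.cst 1) (PE.var 0)) (PE.var 1)
def e1 : PE 4 := PE.add (PE.cst 1) (PE.var 0)
def e2 : PE 4 := PE.cst 1
def f0 : PE 4 := PE.add (PE.add (PE.cst 1) (PE.var 2)) (PE.var 3)
def f1 : PE 4 := PE.add (PE.cst 1) (PE.var 2)
def f2 : PE 4 := PE.cst 1

theorem pI_chk1 : PE.chk (pI e0 e1 e2 f0 f1 f2) 80 16 = true := by decide +kernel
theorem pI_chk2 : PE.chk (pI e0 e1 e2 f2 f1 f0) 80 16 = true := by decide +kernel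

end Vale.Agent.H23.Potts
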