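import Vale.Agent.H23.Potts.CertI

/-
Polynomial certificate for the second merge inequality (subadditivity).
-/

namespace Vale.Agent.H23.Potts

open PE

/-- the bracket -/
def pB {k : ℕ} (x0 x1 x2 y0 y1 y2 : PE k) : PE k :=
  psub
    (psub
      (PE.mul (PE.mul (PE.cst 100) (PE.mul (psq (ps3 x0 x1 x2)) (psq (ps3 y0 y1 y2))))
        (PE.add (PE.mul (pq2 x0 x1 x2) (psq (ps3 y0 y1 y2)))
          (PE.mul (pq2 y0 y1 y2) (psq (ps3 x0 x1 x2)))))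
      (PE.mul (PE.cst 3)
        (PE.add (PE.mul (PE.mul (pnum x0 x1 x2) (pq2 y0 y1 y2)) (psq (ps3 y0 y1 y2)))
          (PE.mul (PE.mul (pnum y0 y1 y2) (pq2 x0 x1 x2)) (psq (ps3 x0 x1 x2))))))
    (PE.mul (PE.mul (pq2 x0 x1 x2) (pq2 y0 y1 y2))
      (PE.mul (psq (ps3 x0 x1 x2)) (psq (ps3 y0 y1 y2))))

/-- product of the normalisations -/
def pZ {k : ℕ} (x0 x1 x2 y0 y1 y2 : PE k) : PE k :=
  PE.mul (PE.mul (ps3 (PE.mul x0 y0) (PE.mul x1 y1) (PE.mul x2 y2))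
    (ps3 (PE.mul x0 y1) (PE.mul x1 y2) (PE.mul x2 y0)))
    (ps3 (PE.mul x0 y2) (PE.mul x1 y0) (PE.mul x2 y1))

/-- sum over the rotations -/
def pT {k : ℕ} (x0 x1 x2 y0 y1 y2 : PE k) : PE k :=
  let a0 := PE.mul x0 y0; let a1 := PE.mul x1 y1; let a2 := PE.mul x2 y2
  let b0 := PE.mul x0 y1; let b1 := PE.mul x1 y2; let b2 := PE.mul x2 y0
  let c0 := PE.mul x0 y2; let c1 := PE.mul x1 y0; let c2 := PE.mul x2 y1
  ps3 (PE.mul (pq2 a0 a1 a2) (PE.mul (ps3 b0 b1 b2) (ps3 c0 c1 c2)))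
    (PE.mul (pq2 b0 b1 b2) (PE.mul (ps3 c0 c1 c2) (ps3 a0 a1 a2)))
    (PE.mul (pq2 c0 c1 c2) (PE.mul (ps3 a0 a1 a2) (ps3 b0 b1 b2)))

/-- the polynomial of the second inequality -/
def pII0 {k : ℕ} (x0 x1 x2 y0 y1 y2 : PE k) : PE k :=
  psub (PE.mul (pB x0 x1 x2 y0 y1 y2) (pZ x0 x1 x2 y0 y1 y2))
    (PE.mul (PE.mul (PE.cst 100) (PE.mul (pcu (ps3 x0 x1 x2)) (pcu (ps3 y0 y1 y2))))
      (pT x0 x1 x2 y0 y1 y2))

/-- with the elevation factor -/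
def pII {k : ℕ} (x0 x1 x2 y0 y1 y2 : PE k) : PE k :=
  PE.mul (PE.mul (pcu (pcu (ps3 x0 x1 x2))) (pcu (pcu (ps3 y0 y1 y2)))) (pII0 x0 x1 x2 y0 y1 y2)

theorem pII_chk1 : PE.chk (pII e0 e1 e2 f0 f1 f2) 92 17 = true := by decide +kernel
theorem pII_chk2 : PE.chk (pII e0 e1 e2 f2 f1 f0) 92 17 = true := by decide +kernel

end Vale.Agent.H23.Potts
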