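import Mathlib

/-
Kronecker substitution certificate: an integer polynomial in `k` variables, given by an
expression, has only nonnegative coefficients if its value at the point
`(B, B^n, B^(n^2), ...)`, `B = 2^b`, has no top bit in any base `B` digit.
-/

namespace Vale.Agent.H23.Potts

open Finset MvPolynomial

/-- integer digits determined by the number -/
theorem nonneg_digits (b : ℕ) (hb : 0 < b) (J : ℕ) : ∀ (N : ℕ) (c : ℕ → ℤ),
    (∀ j < J, |c j| < 2 ^ (b - 1)) →
    (∑ j ∈ range J, c j * (2 ^ b) ^ j = (N : ℤ)) →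
    (∀ j < J, N.testBit (b * j + (b - 1)) = false) → ∀ j < J, 0 ≤ c j := by
  induction J with
  | zero => intro N c _ _ _ j hj; omega
  | succ J ih =>
    intro N c hc hs ht
    have hB : (2 : ℤ) ^ b = 2 * 2 ^ (b - 1) := by
      obtain ⟨b', rfl⟩ : ∃ b', b = b' + 1 := ⟨b - 1, by omega⟩
      rw [Nat.add_sub_cancel, pow_succ]; ring
    have hBp : (0 : ℤ) < 2 ^ (b - 1) := by positivity
    set N' : ℤ := ∑ j ∈ range J, c (j + 1) * (2 ^ b) ^ j with hN'
    have hsplit : (N : ℤ) = c 0 + 2 ^ b * N' := by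
      rw [← hs, Finset.sum_range_succ', pow_zero, mul_one, hN', Finset.mul_sum, add_comm]
      congr 1
      refine Finset.sum_congr rfl (fun j _ => ?_)
      rw [pow_succ]; ring
    have h0 := hc 0 (Nat.succ_pos J)
    rw [abs_lt] at h0
    have hmod : ((N % 2 ^ b : ℕ) : ℤ) = c 0 % 2 ^ b := by
      rw [Int.natCast_mod, hsplit]
      push_cast
      rw [Int.add_mul_emod_self_left]
    have ht0 := ht 0 (Nat.succ_pos J)
    rw [mul_zero, zero_add] at ht0
    have hlow : N % 2 ^ b < 2 ^ (b - 1) := by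
      by_contra hcon
      rw [not_lt] at hcon
      have h1 : (N % 2 ^ b).testBit (b - 1) = true := by
        apply Nat.testBit_of_two_pow_le_and_two_pow_add_one_gt hcon
        have : b - 1 + 1 = b := by omega
        rw [this]
        exact Nat.mod_lt _ (by positivity)
      rw [Nat.testBit_mod_two_pow] at h1
      rw [ht0] at h1
      simp at h1
    have hc0 : 0 ≤ c 0 := by
      by_contra hneg
      rw [not_le] at hneg
      have h2 : c 0 % 2 ^ b = c 0 + 2 ^ b := by
        rw [← Int.add_emod_right]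
        exact Int.emod_eq_of_lt (by linarith) (by linarith)
      rw [h2] at hmod
      have h3 : ((N % 2 ^ b : ℕ) : ℤ) < 2 ^ (b - 1) := by exact_mod_cast hlow
      linarith
    have hc0' : c 0 % 2 ^ b = c 0 := Int.emod_eq_of_lt hc0 (by linarith)
    rw [hc0'] at hmod
    have hdiv : ((N / 2 ^ b : ℕ) : ℤ) = N' := by
      have h4 : (N : ℤ) = 2 ^ b * ((N / 2 ^ b : ℕ) : ℤ) + ((N % 2 ^ b : ℕ) : ℤ) := by
        exact_mod_cast (Nat.div_add_mod N (2 ^ b)).symm
      rw [hmod] at h4
      have h5 : (2 : ℤ) ^ b * ((N / 2 ^ b : ℕ) : ℤ) = 2 ^ b * N' := by linarith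
      exact mul_left_cancel₀ (by positivity) h5
    intro j hj
    rcases j with _ | j
    · exact hc0
    · refine ih (N / 2 ^ b) (fun j => c (j + 1)) (fun j hj => hc (j + 1) (by omega)) ?_ ?_ j
        (by omega)
      · rw [hdiv]
      · intro i hi
        rw [Nat.testBit_div_two_pow]
        have := ht (i + 1) (by omega)
        rw [← this]
        congr 1
        ring

/-- the number with bits exactly at the top positions of the first `J` digits -/
def topMask (b : ℕ) : ℕ → ℕ
  | 0 => 0
  | J + 1 => 2 ^ (b - 1) + 2 ^ b * topMask b J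

theorem topMask_testBit (b : ℕ) (hb : 0 < b) (J : ℕ) : ∀ j < J,
    (topMask b J).testBit (b * j + (b - 1)) = true := by
  induction J with
  | zero => intro j hj; omega
  | succ J ih =>
    intro j hj
    have hlt : 2 ^ (b - 1) < 2 ^ b := Nat.pow_lt_pow_right (by norm_num) (by omega)
    rcases j with _ | j
    · rw [mul_zero, zero_add, topMask, add_comm, Nat.testBit_two_pow_mul_add _ hlt]
      simp [hb]
    · have h1 : (topMask b (J + 1)) / 2 ^ b = topMask b J := by
        rw [topMask, Nat.add_mul_div_left _ _ (by positivity), Nat.div_eq_of_lt hlt, zero_add]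
      have h2 := ih j (by omega)
      rw [← h1, Nat.testBit_div_two_pow] at h2
      rw [← h2]
      congr 1
      ring

theorem topMask_mul (b : ℕ) (J : ℕ) :
    (2 ^ b - 1) * topMask b J = 2 ^ (b - 1) * (2 ^ (b * J) - 1) := by
  have key : ∀ J, (topMask b J : ℤ) * (2 ^ b - 1) = 2 ^ (b - 1) * (2 ^ (b * J) - 1) := by
    intro J
    induction J with
    | zero => simp [topMask]
    | succ J ih =>
      rw [topMask]
      push_cast
      have : (2 : ℤ) ^ (b * (J + 1)) = 2 ^ b * 2 ^ (b * J) := by rw [mul_add, mul_one, pow_add]; ring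
      rw [this]
      linear_combination (2 : ℤ) ^ b * ih
  have h := key J
  zify [Nat.one_le_two_pow (n := b), Nat.one_le_two_pow (n := b * J)]
  linear_combination h

/-- a closed form for the mask -/
theorem topMask_eq (b : ℕ) (hb : 0 < b) (J : ℕ) :
    2 ^ (b - 1) * (2 ^ (b * J) - 1) / (2 ^ b - 1) = topMask b J := by
  rw [← topMask_mul]
  apply Nat.mul_div_cancel_left
  have : 2 ≤ 2 ^ b := by
    calc 2 = 2 ^ 1 := by norm_num
      _ ≤ 2 ^ b := Nat.pow_le_pow_right (by norm_num) hb
  omega

theorem testBit_of_land (b : ℕ) (hb : 0 < b) (J N : ℕ)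
    (h : N &&& (2 ^ (b - 1) * (2 ^ (b * J) - 1) / (2 ^ b - 1)) = 0) :
    ∀ j < J, N.testBit (b * j + (b - 1)) = false := by
  intro j hj
  rw [topMask_eq b hb] at h
  have h1 : (N &&& topMask b J).testBit (b * j + (b - 1)) = false := by rw [h]; simp
  rw [Nat.testBit_and, topMask_testBit b hb J j hj] at h1
  simpa using h1

variable {k : ℕ}

/-- evaluation at the Kronecker point as a digit sum -/
theorem eval_kron (f : MvPolynomial (Fin k) ℤ) (n : ℕ) (hn : 0 < n)
    (hdeg : ∀ m ∈ f.support, ∀ i, m i < n) (B : ℤ) :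
    ∃ c : ℕ → ℤ, (∀ m ∈ f.support, ∃ j < n ^ k, c j = f.coeff m) ∧
      (∀ j, c j = 0 ∨ ∃ m ∈ f.support, c j = f.coeff m) ∧
      MvPolynomial.eval (fun i : Fin k => B ^ (n ^ (i : ℕ))) f
        = ∑ j ∈ range (n ^ k), c j * B ^ j := by
  classical
  let dec : ℕ → (Fin k →₀ ℕ) := fun j =>
    if h : j < n ^ k then Finsupp.equivFunOnFinite.symm
      (fun i => ((finFunctionFinEquiv.symm (⟨j, h⟩ : Fin (n ^ k)) i : Fin n) : ℕ)) else 0
  let enc : (Fin k →₀ ℕ) → ℕ := fun m => ∑ i : Fin k, m i * n ^ (i : ℕ)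
  have henc : ∀ m : Fin k →₀ ℕ, (∀ i, m i < n) → enc m < n ^ k ∧ dec (enc m) = m := by
    intro m hm
    let f' : Fin k → Fin n := fun i => ⟨m i, hm i⟩
    have h1 : ((finFunctionFinEquiv f' : Fin (n ^ k)) : ℕ) = enc m := by
      rw [finFunctionFinEquiv_apply]
    have h2 : enc m < n ^ k := by rw [← h1]; exact (finFunctionFinEquiv f').isLt
    refine ⟨h2, ?_⟩
    simp only [dec, dif_pos h2]
    have h3 : (⟨enc m, h2⟩ : Fin (n ^ k)) = finFunctionFinEquiv f' := Fin.ext h1.symm
    rw [h3, Equiv.symm_apply_apply]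
    ext i
    simp [f']
  refine ⟨fun j => if j < n ^ k then f.coeff (dec j) else 0, ?_, ?_, ?_⟩
  · intro m hm
    obtain ⟨h1, h2⟩ := henc m (hdeg m hm)
    refine ⟨enc m, h1, ?_⟩
    beta_reduce
    rw [if_pos h1, h2]
  · intro j
    beta_reduce
    by_cases hj : j < n ^ k
    · rw [if_pos hj]
      by_cases h0 : f.coeff (dec j) = 0
      · exact Or.inl h0
      · exact Or.inr ⟨dec j, MvPolynomial.mem_support_iff.mpr h0, rfl⟩
    · exact Or.inl (if_neg hj)
  · rw [MvPolynomial.eval_eq']
    have hinj : Set.InjOn enc (f.support : Set (Fin k →₀ ℕ)) := by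
      intro a ha b hb hab
      have h1 := (henc a (hdeg a ha)).2
      have h2 := (henc b (hdeg b hb)).2
      rw [← h1, ← h2, hab]
    have hsub : f.support.image enc ⊆ range (n ^ k) := by
      intro j hj
      obtain ⟨m, hm, rfl⟩ := Finset.mem_image.mp hj
      exact Finset.mem_range.mpr (henc m (hdeg m hm)).1
    rw [← Finset.sum_subset hsub, Finset.sum_image hinj]
    · refine Finset.sum_congr rfl (fun m hm => ?_)
      obtain ⟨h1, h2⟩ := henc m (hdeg m hm)
      beta_reduce
      rw [if_pos h1, h2]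
      congr 1
      simp only [enc]
      rw [← Finset.prod_pow_eq_pow_sum]
      refine Finset.prod_congr rfl (fun i _ => ?_)
      rw [← pow_mul, mul_comm]
    · intro j hj hj2
      rw [Finset.mem_range] at hj
      beta_reduce
      rw [if_pos hj]
      by_cases h0 : f.coeff (dec j) = 0
      · rw [h0, zero_mul]
      · exfalso
        apply hj2
        refine Finset.mem_image.mpr ⟨dec j, MvPolynomial.mem_support_iff.mpr h0, ?_⟩
        simp only [enc, dec, dif_pos hj]
        have h5 := finFunctionFinEquiv_apply (finFunctionFinEquiv.symm (⟨j, hj⟩ : Fin (n ^ k)))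
        rw [Equiv.apply_symm_apply] at h5
        simp only at h5
        exact h5.symm

/-- polynomial expressions -/
inductive PE (k : ℕ) : Type
  | var (i : Fin k) : PE k
  | cst (z : ℤ) : PE k
  | add (a b : PE k) : PE k
  | mul (a b : PE k) : PE k
  | neg (a : PE k) : PE k

namespace PE

/-- the polynomial -/
noncomputable def toMv : PE k → MvPolynomial (Fin k) ℤ
  | var i => X i
  | cst z => C z
  | add a b => toMv a + toMv b
  | mul a b => toMv a * toMv b
  | neg a => - toMv a

/-- real value -/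
def evR (v : Fin k → ℝ) : PE k → ℝ
  | var i => v i
  | cst z => (z : ℝ)
  | add a b => evR v a + evR v b
  | mul a b => evR v a * evR v b
  | neg a => - evR v a

/-- integer value -/
def evZ (v : Fin k → ℤ) : PE k → ℤ
  | var i => v i
  | cst z => z
  | add a b => evZ v a + evZ v b
  | mul a b => evZ v a * evZ v b
  | neg a => - evZ v a

/-- bound of the coefficients -/
def mb : PE k → ℕ
  | var _ => 1
  | cst z => z.natAbs
  | add a b => mb a + mb b
  | mul a b => mb a * mb b
  | neg a => mb a

/-- degree bound in variable `i` -/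
def dg (i : Fin k) : PE k → ℕ
  | var j => if i.val = j.val then 1 else 0
  | cst _ => 0
  | add a b => max (dg i a) (dg i b)
  | mul a b => dg i a + dg i b
  | neg a => dg i a

/-- majorant -/
noncomputable def maj : PE k → MvPolynomial (Fin k) ℤ
  | var i => X i
  | cst z => C |z|
  | add a b => maj a + maj b
  | mul a b => maj a * maj b
  | neg a => maj a

theorem evR_eq (v : Fin k → ℝ) (e : PE k) : evR v e = MvPolynomial.aeval v (toMv e) := by
  induction e with
  | var i => simp [evR, toMv]
  | cst z => simp [evR, toMv]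
  | add a b ha hb => simp [evR, toMv, ha, hb]
  | mul a b ha hb => simp [evR, toMv, ha, hb]
  | neg a ha => simp [evR, toMv, ha]

theorem evZ_eq (v : Fin k → ℤ) (e : PE k) : evZ v e = MvPolynomial.eval v (toMv e) := by
  induction e with
  | var i => simp [evZ, toMv]
  | cst z => simp [evZ, toMv]
  | add a b ha hb => simp [evZ, toMv, ha, hb]
  | mul a b ha hb => simp [evZ, toMv, ha, hb]
  | neg a ha => simp [evZ, toMv, ha]

theorem coeff_le_maj (e : PE k) : ∀ m, |(toMv e).coeff m| ≤ (maj e).coeff m := by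
  classical
  induction e with
  | var i =>
    intro m
    simp only [toMv, maj, MvPolynomial.coeff_X]
    split_ifs <;> simp
  | cst z =>
    intro m
    simp only [toMv, maj, MvPolynomial.coeff_C]
    split_ifs <;> simp
  | add a b ha hb =>
    intro m
    simp only [toMv, maj, MvPolynomial.coeff_add]
    exact (abs_add_le _ _).trans (add_le_add (ha m) (hb m))
  | mul a b ha hb =>
    intro m
    simp only [toMv, maj, MvPolynomial.coeff_mul]
    refine (Finset.abs_sum_le_sum_abs _ _).trans (Finset.sum_le_sum (fun x _ => ?_))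
    rw [abs_mul]
    exact mul_le_mul (ha _) (hb _) (abs_nonneg _) ((abs_nonneg _).trans (ha _))
  | neg a ha =>
    intro m
    simp only [toMv, maj, MvPolynomial.coeff_neg, abs_neg]
    exact ha m

theorem maj_nonneg (e : PE k) (m : Fin k →₀ ℕ) : 0 ≤ (maj e).coeff m :=
  (abs_nonneg _).trans (coeff_le_maj e m)

theorem eval_maj (e : PE k) : MvPolynomial.eval (fun _ => (1 : ℤ)) (maj e) = (mb e : ℤ) := by
  induction e with
  | var i => simp [maj, mb]
  | cst z => simp [maj, mb]
  | add a b ha hb => simp [maj, mb, ha, hb]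
  | mul a b ha hb => simp [maj, mb, ha, hb]
  | neg a ha => simp [maj, mb, ha]

theorem coeff_le_mb (e : PE k) (m : Fin k →₀ ℕ) : |(toMv e).coeff m| ≤ (mb e : ℤ) := by
  refine (coeff_le_maj e m).trans ?_
  rw [← eval_maj, MvPolynomial.eval_eq']
  by_cases hm : m ∈ (maj e).support
  · have := Finset.single_le_sum (f := fun d => (maj e).coeff d * ∏ _i : Fin k, (1 : ℤ) ^ d _i)
      (fun d _ => by simpa using maj_nonneg e d) hm
    simpa using this
  · rw [MvPolynomial.notMem_support_iff.mp hm]
    exact Finset.sum_nonneg (fun d _ => by simpa using maj_nonneg e d)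

theorem degreeOf_le (i : Fin k) (e : PE k) : (toMv e).degreeOf i ≤ dg i e := by
  classical
  induction e with
  | var j =>
    simp only [toMv, dg]
    rw [MvPolynomial.degreeOf_X]
    by_cases h : i = j
    · rw [if_pos h, if_pos (by rw [h])]
    · rw [if_neg h]; exact Nat.zero_le _
  | cst z =>
    change MvPolynomial.degreeOf i (C z) ≤ 0
    rw [MvPolynomial.degreeOf_C]
  | add a b ha hb =>
    simp only [toMv, dg]
    exact (MvPolynomial.degreeOf_add_le _ _ _).trans (max_le_max ha hb)
  | mul a b ha hb =>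
    simp only [toMv, dg]
    exact (MvPolynomial.degreeOf_mul_le _ _ _).trans (add_le_add ha hb)
  | neg a ha =>
    simp only [toMv, dg, MvPolynomial.degreeOf_neg]
    exact ha

/-- the kernel check -/
def chk (e : PE k) (b n : ℕ) : Bool :=
  (Nat.ble 1 b) && (Nat.ble 1 n) && ((List.finRange k).all (fun i => Nat.blt (dg i e) n)) &&
  (Nat.blt (mb e) (2 ^ (b - 1))) &&
  (match evZ (fun i : Fin k => ((2 ^ b : ℕ) ^ (n ^ (i : ℕ)) : ℕ)) e with
    | Int.ofNat N => Nat.beq (Nat.land N (2 ^ (b - 1) * (2 ^ (b * n ^ k) - 1) / (2 ^ b - 1))) 0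
    | Int.negSucc _ => false)

theorem coeff_nonneg (e : PE k) (b n : ℕ) (h : chk e b n = true) :
    ∀ m, 0 ≤ (toMv e).coeff m := by
  unfold chk at h
  simp only [Bool.and_eq_true] at h
  obtain ⟨⟨⟨⟨h1, h2⟩, h3⟩, h4⟩, h5⟩ := h
  have hb : 0 < b := Nat.le_of_ble_eq_true h1
  have hn : 0 < n := Nat.le_of_ble_eq_true h2
  have hdeg : ∀ m ∈ (toMv e).support, ∀ i, m i < n := by
    intro m hm i
    rw [List.all_eq_true] at h3
    have h6 : dg i e < n := by
      have := h3 i (List.mem_finRange i)
      exact Nat.le_of_ble_eq_true this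
    exact lt_of_le_of_lt ((MvPolynomial.monomial_le_degreeOf i hm).trans (degreeOf_le i e)) h6
  have hmb : mb e < 2 ^ (b - 1) := Nat.le_of_ble_eq_true h4
  obtain ⟨c, hc1, hc2, hc3⟩ := eval_kron (toMv e) n hn hdeg ((2 : ℤ) ^ b)
  rcases hN : evZ (fun i : Fin k => (((2 ^ b : ℕ) ^ (n ^ (i : ℕ)) : ℕ) : ℤ)) e with N | N
  · rw [hN] at h5
    have hmask : N &&& (2 ^ (b - 1) * (2 ^ (b * n ^ k) - 1) / (2 ^ b - 1)) = 0 :=
      Nat.eq_of_beq_eq_true h5
    have hbits := testBit_of_land b hb (n ^ k) N hmask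
    have hval : ∑ j ∈ range (n ^ k), c j * (2 ^ b) ^ j = (N : ℤ) := by
      rw [← hc3, ← evZ_eq]
      push_cast at hN
      exact hN
    have hcb : ∀ j < n ^ k, |c j| < 2 ^ (b - 1) := by
      intro j _
      have hp : ((mb e : ℕ) : ℤ) < 2 ^ (b - 1) := by exact_mod_cast hmb
      rcases hc2 j with h0 | ⟨m, _, h0⟩
      · rw [h0, abs_zero]; positivity
      · rw [h0]; exact lt_of_le_of_lt (coeff_le_mb e m) hp
    have hfin := nonneg_digits b hb (n ^ k) N c hcb hval hbits
    intro m
    by_cases hm : m ∈ (toMv e).support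
    · obtain ⟨j, hj, hj2⟩ := hc1 m hm
      rw [← hj2]; exact hfin j hj
    · rw [MvPolynomial.notMem_support_iff.mp hm]
  · rw [hN] at h5
    exact absurd h5 (by simp)

/-- main use: nonnegativity for nonnegative arguments -/
theorem evR_nonneg (e : PE k) (b n : ℕ) (h : chk e b n = true) (v : Fin k → ℝ)
    (hv : ∀ i, 0 ≤ v i) : 0 ≤ evR v e := by
  rw [evR_eq, MvPolynomial.aeval_def, MvPolynomial.eval₂_eq']
  refine Finset.sum_nonneg (fun d _ => mul_nonneg ?_ (Finset.prod_nonneg (fun i _ => ?_)))
  · have := coeff_nonneg e b n h d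
    simpa using this
  · exact pow_nonneg (hv i) _

end PE

end Vale.Agent.H23.Potts
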