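import Vale.Agent.H23.Potts.Q3Real

/-
Merge inequalities for the three state Potts model: scale free form for all positive vectors.
-/

namespace Vale.Agent.H23.Potts

/-- normalised quadratic functional -/
noncomputable def sg (a b c : ℝ) : ℝ := rq2 a b c / (a + b + c) ^ 2
/-- normalised cubic functional -/
noncomputable def ag (a b c : ℝ) : ℝ := rc3 a b c / (a + b + c) ^ 3
/-- the invariant functional -/
noncomputable def gg (a b c : ℝ) : ℝ := ag a b c - 37 / 25 * (sg a b c) ^ 2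

theorem q2_eq {a b c : ℝ} (h : 0 < a + b + c) : rq2 a b c = sg a b c * (a + b + c) ^ 2 := by
  unfold sg; field_simp

theorem num_eq {a b c : ℝ} (h : 0 < a + b + c) :
    rnum a b c = 25 * gg a b c * (a + b + c) ^ 4 := by
  unfold gg ag sg rnum; field_simp; ring

/-- rotation sum of the homogeneous extension of `gg` -/
noncomputable def RG (x0 x1 x2 y0 y1 y2 : ℝ) : ℝ :=
  (x0 * y0 + x1 * y1 + x2 * y2) * gg (x0 * y0) (x1 * y1) (x2 * y2) +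
  (x0 * y1 + x1 * y2 + x2 * y0) * gg (x0 * y1) (x1 * y2) (x2 * y0) +
  (x0 * y2 + x1 * y0 + x2 * y1) * gg (x0 * y2) (x1 * y0) (x2 * y1)

/-- rotation sum of the homogeneous extension of `sg` -/
noncomputable def RS (x0 x1 x2 y0 y1 y2 : ℝ) : ℝ :=
  (x0 * y0 + x1 * y1 + x2 * y2) * sg (x0 * y0) (x1 * y1) (x2 * y2) +
  (x0 * y1 + x1 * y2 + x2 * y0) * sg (x0 * y1) (x1 * y2) (x2 * y0) +
  (x0 * y2 + x1 * y0 + x2 * y1) * sg (x0 * y2) (x1 * y0) (x2 * y1)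

/-- the two inequalities -/
def MI (x0 x1 x2 y0 y1 y2 : ℝ) : Prop :=
  (x0 + x1 + x2) * (y0 + y1 + y2) *
      ((1 - sg y0 y1 y2) ^ 3 * gg x0 x1 x2 + (1 - sg x0 x1 x2) ^ 3 * gg y0 y1 y2) ≤
    RG x0 x1 x2 y0 y1 y2 ∧
  RS x0 x1 x2 y0 y1 y2 ≤ (x0 + x1 + x2) * (y0 + y1 + y2) *
    (sg x0 x1 x2 + sg y0 y1 y2 - 3 / 4 * (gg x0 x1 x2 * sg y0 y1 y2 + gg y0 y1 y2 * sg x0 x1 x2)
      - 1 / 100 * (sg x0 x1 x2 * sg y0 y1 y2))

theorem rI_eq {x0 x1 x2 y0 y1 y2 : ℝ} (hx0 : 0 < x0) (hx1 : 0 < x1) (hx2 : 0 < x2)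
    (hy0 : 0 < y0) (hy1 : 0 < y1) (hy2 : 0 < y2) :
    rI x0 x1 x2 y0 y1 y2 = (25 * ((x0 + x1 + x2) ^ 5 * (y0 + y1 + y2) ^ 5 *
      ((x0 * y0 + x1 * y1 + x2 * y2) * (x0 * y1 + x1 * y2 + x2 * y0) *
        (x0 * y2 + x1 * y0 + x2 * y1)) ^ 3)) *
      (RG x0 x1 x2 y0 y1 y2 - (x0 + x1 + x2) * (y0 + y1 + y2) *
      ((1 - sg y0 y1 y2) ^ 3 * gg x0 x1 x2 + (1 - sg x0 x1 x2) ^ 3 * gg y0 y1 y2)) := by
  have hx : 0 < x0 + x1 + x2 := by positivity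
  have hy : 0 < y0 + y1 + y2 := by positivity
  have h0 : 0 < x0 * y0 + x1 * y1 + x2 * y2 := by positivity
  have h1 : 0 < x0 * y1 + x1 * y2 + x2 * y0 := by positivity
  have h2 : 0 < x0 * y2 + x1 * y0 + x2 * y1 := by positivity
  unfold rI rL rD rR rfi RG
  rw [num_eq h0, num_eq h1, num_eq h2, num_eq hx, num_eq hy, q2_eq hx, q2_eq hy]
  generalize gg (x0 * y0) (x1 * y1) (x2 * y2) = g0
  generalize gg (x0 * y1) (x1 * y2) (x2 * y0) = g1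
  generalize gg (x0 * y2) (x1 * y0) (x2 * y1) = g2
  generalize gg x0 x1 x2 = gx
  generalize gg y0 y1 y2 = gy
  generalize sg x0 x1 x2 = sx
  generalize sg y0 y1 y2 = sy
  generalize x0 * y0 + x1 * y1 + x2 * y2 = z0
  generalize x0 * y1 + x1 * y2 + x2 * y0 = z1
  generalize x0 * y2 + x1 * y0 + x2 * y1 = z2
  generalize x0 + x1 + x2 = s
  generalize y0 + y1 + y2 = t
  ring

theorem rII_eq {x0 x1 x2 y0 y1 y2 : ℝ} (hx0 : 0 < x0) (hx1 : 0 < x1) (hx2 : 0 < x2)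
    (hy0 : 0 < y0) (hy1 : 0 < y1) (hy2 : 0 < y2) :
    rII x0 x1 x2 y0 y1 y2 = (100 * ((x0 + x1 + x2) ^ 3 * (y0 + y1 + y2) ^ 3 *
      ((x0 * y0 + x1 * y1 + x2 * y2) * (x0 * y1 + x1 * y2 + x2 * y0) *
        (x0 * y2 + x1 * y0 + x2 * y1)))) *
      ((x0 + x1 + x2) * (y0 + y1 + y2) *
    (sg x0 x1 x2 + sg y0 y1 y2 - 3 / 4 * (gg x0 x1 x2 * sg y0 y1 y2 + gg y0 y1 y2 * sg x0 x1 x2)
      - 1 / 100 * (sg x0 x1 x2 * sg y0 y1 y2)) - RS x0 x1 x2 y0 y1 y2) := by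
  have hx : 0 < x0 + x1 + x2 := by positivity
  have hy : 0 < y0 + y1 + y2 := by positivity
  have h0 : 0 < x0 * y0 + x1 * y1 + x2 * y2 := by positivity
  have h1 : 0 < x0 * y1 + x1 * y2 + x2 * y0 := by positivity
  have h2 : 0 < x0 * y2 + x1 * y0 + x2 * y1 := by positivity
  unfold rII rB rZ rT RS
  rw [num_eq hx, num_eq hy, q2_eq hx, q2_eq hy, q2_eq h0, q2_eq h1, q2_eq h2]
  generalize sg (x0 * y0) (x1 * y1) (x2 * y2) = g0
  generalize sg (x0 * y1) (x1 * y2) (x2 * y0) = g1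
  generalize sg (x0 * y2) (x1 * y0) (x2 * y1) = g2
  generalize gg x0 x1 x2 = gx
  generalize gg y0 y1 y2 = gy
  generalize sg x0 x1 x2 = sx
  generalize sg y0 y1 y2 = sy
  generalize x0 * y0 + x1 * y1 + x2 * y2 = z0
  generalize x0 * y1 + x1 * y2 + x2 * y0 = z1
  generalize x0 * y2 + x1 * y0 + x2 * y1 = z2
  generalize x0 + x1 + x2 = s
  generalize y0 + y1 + y2 = t
  ring

theorem nn_aux {c d : ℝ} (hc : 0 < c) (h : 0 ≤ c * d) : 0 ≤ d := by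
  by_contra hd
  rw [not_le] at hd
  exact absurd h (not_le.mpr (mul_neg_of_pos_of_neg hc hd))

theorem MI_of {x0 x1 x2 y0 y1 y2 : ℝ} (hx0 : 0 < x0) (hx1 : 0 < x1) (hx2 : 0 < x2)
    (hy0 : 0 < y0) (hy1 : 0 < y1) (hy2 : 0 < y2) (h1 : 0 ≤ rI x0 x1 x2 y0 y1 y2)
    (h2 : 0 ≤ rII x0 x1 x2 y0 y1 y2) : MI x0 x1 x2 y0 y1 y2 := by
  have hc1 : 0 < (25 * ((x0 + x1 + x2) ^ 5 * (y0 + y1 + y2) ^ 5 *
      ((x0 * y0 + x1 * y1 + x2 * y2) * (x0 * y1 + x1 * y2 + x2 * y0) *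
        (x0 * y2 + x1 * y0 + x2 * y1)) ^ 3)) := by positivity
  have hc2 : 0 < (100 * ((x0 + x1 + x2) ^ 3 * (y0 + y1 + y2) ^ 3 *
      ((x0 * y0 + x1 * y1 + x2 * y2) * (x0 * y1 + x1 * y2 + x2 * y0) *
        (x0 * y2 + x1 * y0 + x2 * y1)))) := by positivity
  rw [rI_eq hx0 hx1 hx2 hy0 hy1 hy2] at h1
  rw [rII_eq hx0 hx1 hx2 hy0 hy1 hy2] at h2
  exact ⟨sub_nonneg.mp (nn_aux hc1 h1), sub_nonneg.mp (nn_aux hc2 h2)⟩

theorem sg_scale {t : ℝ} (ht : t ≠ 0) (a b c : ℝ) : sg (t * a) (t * b) (t * c) = sg a b c := by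
  unfold sg rq2
  rw [show (t * a * (t * a) + t * b * (t * b) + t * c * (t * c) +
      -(t * a * (t * b) + t * b * (t * c) + t * c * (t * a))) = t ^ 2 *
      (a * a + b * b + c * c + -(a * b + b * c + c * a)) by ring,
    show (t * a + t * b + t * c) ^ 2 = t ^ 2 * (a + b + c) ^ 2 by ring]
  exact mul_div_mul_left _ _ (pow_ne_zero 2 ht)

theorem ag_scale {t : ℝ} (ht : t ≠ 0) (a b c : ℝ) : ag (t * a) (t * b) (t * c) = ag a b c := by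
  unfold ag rc3
  rw [show (3 * (t * a) + -(t * a + t * b + t * c)) * (3 * (t * b) + -(t * a + t * b + t * c)) *
      (3 * (t * c) + -(t * a + t * b + t * c)) = t ^ 3 *
      ((3 * a + -(a + b + c)) * (3 * b + -(a + b + c)) * (3 * c + -(a + b + c))) by ring,
    show (t * a + t * b + t * c) ^ 3 = t ^ 3 * (a + b + c) ^ 3 by ring]
  exact mul_div_mul_left _ _ (pow_ne_zero 3 ht)

theorem gg_scale {t : ℝ} (ht : t ≠ 0) (a b c : ℝ) : gg (t * a) (t * b) (t * c) = gg a b c := by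
  unfold gg; rw [sg_scale ht, ag_scale ht]

theorem MI_scale {s t : ℝ} (hs : 0 < s) (ht : 0 < t) {x0 x1 x2 y0 y1 y2 : ℝ}
    (h : MI x0 x1 x2 y0 y1 y2) :
    MI (s * x0) (s * x1) (s * x2) (t * y0) (t * y1) (t * y2) := by
  have e : ∀ a b : ℝ, s * a * (t * b) = (s * t) * (a * b) := fun a b => by ring
  have hst : s * t ≠ 0 := (mul_pos hs ht).ne'
  have hp : 0 ≤ s * t := (mul_pos hs ht).le
  unfold MI RG RS at *
  simp only [e, gg_scale hst, sg_scale hst, gg_scale hs.ne', gg_scale ht.ne', sg_scale hs.ne',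
    sg_scale ht.ne']
  revert h
  generalize gg (x0 * y0) (x1 * y1) (x2 * y2) = g0
  generalize gg (x0 * y1) (x1 * y2) (x2 * y0) = g1
  generalize gg (x0 * y2) (x1 * y0) (x2 * y1) = g2
  generalize sg (x0 * y0) (x1 * y1) (x2 * y2) = k0
  generalize sg (x0 * y1) (x1 * y2) (x2 * y0) = k1
  generalize sg (x0 * y2) (x1 * y0) (x2 * y1) = k2
  generalize (1 - sg y0 y1 y2) ^ 3 * gg x0 x1 x2 + (1 - sg x0 x1 x2) ^ 3 * gg y0 y1 y2 = A
  generalize sg x0 x1 x2 + sg y0 y1 y2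
    - 3 / 4 * (gg x0 x1 x2 * sg y0 y1 y2 + gg y0 y1 y2 * sg x0 x1 x2)
      - 1 / 100 * (sg x0 x1 x2 * sg y0 y1 y2) = B
  intro h
  have h1 := mul_le_mul_of_nonneg_left h.1 hp
  have h2 := mul_le_mul_of_nonneg_left h.2 hp
  constructor
  · calc _ = s * t * ((x0 + x1 + x2) * (y0 + y1 + y2) * A) := by ring
      _ ≤ _ := h1
      _ = _ := by ring
  · calc _ = s * t * ((x0 * y0 + x1 * y1 + x2 * y2) * k0 + (x0 * y1 + x1 * y2 + x2 * y0) * k1 +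
          (x0 * y2 + x1 * y0 + x2 * y1) * k2) := by ring
      _ ≤ _ := h2
      _ = _ := by ring

theorem sg_rot (a b c : ℝ) : sg b c a = sg a b c := by
  unfold sg rq2
  congr 1 <;> ring

theorem sg_rev (a b c : ℝ) : sg c b a = sg a b c := by
  unfold sg rq2
  congr 1 <;> ring

theorem gg_rot (a b c : ℝ) : gg b c a = gg a b c := by
  unfold gg ag rc3
  rw [sg_rot]
  congr 1
  congr 1 <;> ring

theorem gg_rev (a b c : ℝ) : gg c b a = gg a b c := by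
  unfold gg ag rc3
  rw [sg_rev]
  congr 1
  congr 1 <;> ring

theorem MI_rotY {x0 x1 x2 y0 y1 y2 : ℝ} (h : MI x0 x1 x2 y0 y1 y2) :
    MI x0 x1 x2 y1 y2 y0 := by
  unfold MI RG RS at *
  rw [sg_rot y0 y1 y2, gg_rot y0 y1 y2]
  have hs : y1 + y2 + y0 = y0 + y1 + y2 := by ring
  rw [hs]
  constructor
  · refine h.1.trans (le_of_eq ?_)
    ring
  · refine (le_of_eq ?_).trans h.2
    ring

theorem MI_rotX {x0 x1 x2 y0 y1 y2 : ℝ} (h : MI x0 x1 x2 y0 y1 y2) :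
    MI x1 x2 x0 y0 y1 y2 := by
  have e0 : RG x1 x2 x0 y0 y1 y2 = RG x0 x1 x2 y0 y1 y2 := by
    unfold RG
    rw [gg_rot (x0 * y2) (x1 * y0) (x2 * y1), gg_rot (x0 * y0) (x1 * y1) (x2 * y2),
      gg_rot (x0 * y1) (x1 * y2) (x2 * y0)]
    ring
  have e1 : RS x1 x2 x0 y0 y1 y2 = RS x0 x1 x2 y0 y1 y2 := by
    unfold RS
    rw [sg_rot (x0 * y2) (x1 * y0) (x2 * y1), sg_rot (x0 * y0) (x1 * y1) (x2 * y2),
      sg_rot (x0 * y1) (x1 * y2) (x2 * y0)]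
    ring
  unfold MI at *
  rw [e0, e1, sg_rot x0 x1 x2, gg_rot x0 x1 x2]
  have hs : x1 + x2 + x0 = x0 + x1 + x2 := by ring
  rw [hs]
  exact h

theorem MI_rev {x0 x1 x2 y0 y1 y2 : ℝ} (h : MI x0 x1 x2 y0 y1 y2) :
    MI x2 x1 x0 y2 y1 y0 := by
  have e0 : RG x2 x1 x0 y2 y1 y0 = RG x0 x1 x2 y0 y1 y2 := by
    unfold RG
    rw [gg_rev (x0 * y0) (x1 * y1) (x2 * y2)]
    have h1 : gg (x2 * y1) (x1 * y0) (x0 * y2) = gg (x0 * y2) (x1 * y0) (x2 * y1) :=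
      gg_rev _ _ _
    have h2 : gg (x2 * y0) (x1 * y2) (x0 * y1) = gg (x0 * y1) (x1 * y2) (x2 * y0) :=
      gg_rev _ _ _
    rw [h1, h2]
    ring
  have e1 : RS x2 x1 x0 y2 y1 y0 = RS x0 x1 x2 y0 y1 y2 := by
    unfold RS
    rw [sg_rev (x0 * y0) (x1 * y1) (x2 * y2)]
    have h1 : sg (x2 * y1) (x1 * y0) (x0 * y2) = sg (x0 * y2) (x1 * y0) (x2 * y1) :=
      sg_rev _ _ _
    have h2 : sg (x2 * y0) (x1 * y2) (x0 * y1) = sg (x0 * y1) (x1 * y2) (x2 * y0) :=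
      sg_rev _ _ _
    rw [h1, h2]
    ring
  unfold MI at *
  rw [e0, e1, sg_rev x0 x1 x2, gg_rev x0 x1 x2, sg_rev y0 y1 y2, gg_rev y0 y1 y2]
  have hs : x2 + x1 + x0 = x0 + x1 + x2 := by ring
  have ht : y2 + y1 + y0 = y0 + y1 + y2 := by ring
  rw [hs, ht]
  exact h

/-- sorted first vector, sorted second vector -/
theorem MI_sorted {x0 x1 x2 y0 y1 y2 : ℝ} (hx2 : 0 < x2) (h21 : x2 ≤ x1) (h10 : x1 ≤ x0)
    (hy2 : 0 < y2) (k21 : y2 ≤ y1) (k10 : y1 ≤ y0) :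
    MI x0 x1 x2 y0 y1 y2 ∧ MI x0 x1 x2 y2 y1 y0 := by
  obtain ⟨q, hq, rfl⟩ : ∃ q, 0 ≤ q ∧ x1 = x2 * (1 + q) :=
    ⟨(x1 - x2) / x2, div_nonneg (by linarith) hx2.le, by field_simp; ring⟩
  obtain ⟨r, hr, rfl⟩ : ∃ r, 0 ≤ r ∧ x0 = x2 * (1 + q + r) :=
    ⟨(x0 - x2 * (1 + q)) / x2, div_nonneg (by linarith) hx2.le, by field_simp; ring⟩
  obtain ⟨s, hs, rfl⟩ : ∃ q, 0 ≤ q ∧ y1 = y2 * (1 + q) :=
    ⟨(y1 - y2) / y2, div_nonneg (by linarith) hy2.le, by field_simp; ring⟩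
  obtain ⟨t, ht, rfl⟩ : ∃ r, 0 ≤ r ∧ y0 = y2 * (1 + s + r) :=
    ⟨(y0 - y2 * (1 + s)) / y2, div_nonneg (by linarith) hy2.le, by field_simp; ring⟩
  have hI := rI_nonneg q r s t hq hr hs ht
  have hII := rII_nonneg q r s t hq hr hs ht
  have p1 : (0 : ℝ) < 1 + q + r := by positivity
  have p2 : (0 : ℝ) < 1 + q := by positivity
  have p3 : (0 : ℝ) < 1 + s + t := by positivity
  have p4 : (0 : ℝ) < 1 + s := by positivity
  constructor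
  · have := MI_scale hx2 hy2 (MI_of p1 p2 one_pos p3 p4 one_pos hI.1 hII.1)
    simpa only [mul_one] using this
  · have := MI_scale hx2 hy2 (MI_of p1 p2 one_pos one_pos p4 p3 hI.2 hII.2)
    simpa only [mul_one] using this

/-- sorted first vector, any second vector -/
theorem MI_sortedX {x0 x1 x2 y0 y1 y2 : ℝ} (hx2 : 0 < x2) (h21 : x2 ≤ x1) (h10 : x1 ≤ x0)
    (hy0 : 0 < y0) (hy1 : 0 < y1) (hy2 : 0 < y2) : MI x0 x1 x2 y0 y1 y2 := by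
  rcases le_total y2 y1 with a | a <;> rcases le_total y1 y0 with b | b <;>
    rcases le_total y2 y0 with c | c
  · exact (MI_sorted hx2 h21 h10 hy2 a b).1
  · exact (MI_sorted hx2 h21 h10 hy2 a b).1
  · exact MI_rotY (MI_sorted (y0 := y1) (y1 := y0) (y2 := y2) hx2 h21 h10 hy2 c b).2
  · exact MI_rotY (MI_rotY (MI_sorted (y0 := y1) (y1 := y2) (y2 := y0) hx2 h21 h10 hy0 c a).1)
  · exact MI_rotY (MI_rotY (MI_sorted (y0 := y0) (y1 := y2) (y2 := y1) hx2 h21 h10 hy1 a c).2)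
  · exact MI_rotY (MI_sorted (y0 := y2) (y1 := y0) (y2 := y1) hx2 h21 h10 hy1 b c).1
  · exact (MI_sorted (y0 := y2) (y1 := y1) (y2 := y0) hx2 h21 h10 hy0 b a).2
  · exact (MI_sorted (y0 := y2) (y1 := y1) (y2 := y0) hx2 h21 h10 hy0 b a).2

/-- the merge inequalities for all positive vectors -/
theorem MI_all {x0 x1 x2 y0 y1 y2 : ℝ} (hx0 : 0 < x0) (hx1 : 0 < x1) (hx2 : 0 < x2)
    (hy0 : 0 < y0) (hy1 : 0 < y1) (hy2 : 0 < y2) : MI x0 x1 x2 y0 y1 y2 := by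
  rcases le_total x2 x1 with a | a <;> rcases le_total x1 x0 with b | b <;>
    rcases le_total x2 x0 with c | c
  · exact MI_sortedX hx2 a b hy0 hy1 hy2
  · exact MI_sortedX hx2 a b hy0 hy1 hy2
  · exact MI_rotX (MI_rev (MI_sortedX (x0 := x1) (x1 := x0) (x2 := x2) hx2 c b hy2 hy1 hy0))
  · exact MI_rotX (MI_rotX (MI_sortedX (x0 := x1) (x1 := x2) (x2 := x0) hx0 c a hy0 hy1 hy2))
  · exact MI_rotX (MI_rotX (MI_rev
      (MI_sortedX (x0 := x0) (x1 := x2) (x2 := x1) hx1 a c hy2 hy1 hy0)))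
  · exact MI_rotX (MI_sortedX (x0 := x2) (x1 := x0) (x2 := x1) hx1 b c hy0 hy1 hy2)
  · exact MI_rev (MI_sortedX (x0 := x2) (x1 := x1) (x2 := x0) hx0 b a hy2 hy1 hy0)
  · exact MI_rev (MI_sortedX (x0 := x2) (x1 := x1) (x2 := x0) hx0 b a hy2 hy1 hy0)

end Vale.Agent.H23.Potts
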