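import Vale.Agent.H17.P154.Q3
import Vale.Agent.H23.Potts.Q3Merge

/-
The two pointwise inequalities for the three state ferromagnetic Potts channel.
-/

namespace Vale.Agent.H23.Potts

open Vale.Agent.H17.P154

theorem S3_eq_sg {x : Fin 3 → ℝ} (h : 0 < x 0 + x 1 + x 2) :
    S3 (fun i => x i / mean3 x - 1) = sg (x 0) (x 1) (x 2) := by
  unfold S3 mean3 sg rq2
  have h' : x 0 + x 1 + x 2 ≠ 0 := h.ne'
  field_simp
  ring

theorem A3_eq_ag {x : Fin 3 → ℝ} (h : 0 < x 0 + x 1 + x 2) :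
    A3 (fun i => x i / mean3 x - 1) = ag (x 0) (x 1) (x 2) := by
  unfold A3 mean3 ag rc3
  have h' : x 0 + x 1 + x 2 ≠ 0 := h.ne'
  field_simp
  ring

theorem g3_eq_gg {x : Fin 3 → ℝ} (h : 0 < x 0 + x 1 + x 2) :
    g3 (fun i => x i / mean3 x - 1) = gg (x 0) (x 1) (x 2) := by
  unfold g3 gg
  rw [S3_eq_sg h, A3_eq_ag h]

theorem univ_perm3 : (Finset.univ : Finset (Equiv.Perm (Fin 3))) =
    {1, Equiv.swap 0 1, Equiv.swap 1 2, Equiv.swap 0 2,
      Equiv.swap 0 1 * Equiv.swap 1 2, Equiv.swap 1 2 * Equiv.swap 0 1} := by decide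

theorem sum_perm3 (F : (Fin 3 → ℝ) → ℝ) (a b : Fin 3 → ℝ) :
    ∑ π : Equiv.Perm (Fin 3), F (fun i => a i * b (π i)) =
      F ![a 0 * b 0, a 1 * b 1, a 2 * b 2] + F ![a 0 * b 1, a 1 * b 2, a 2 * b 0] +
      F ![a 0 * b 2, a 1 * b 0, a 2 * b 1] + F ![a 0 * b 0, a 1 * b 2, a 2 * b 1] +
      F ![a 0 * b 2, a 1 * b 1, a 2 * b 0] + F ![a 0 * b 1, a 1 * b 0, a 2 * b 2] := by
  have key : ∀ (π : Equiv.Perm (Fin 3)) (p q r : Fin 3), π 0 = p → π 1 = q → π 2 = r →
      (fun i => a i * b (π i)) = ![a 0 * b p, a 1 * b q, a 2 * b r] := by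
    intro π p q r h0 h1 h2
    funext i
    fin_cases i
    · simp [h0]
    · simp [h1]
    · simp [h2]
  rw [univ_perm3]
  rw [Finset.sum_insert (by decide), Finset.sum_insert (by decide),
    Finset.sum_insert (by decide), Finset.sum_insert (by decide),
    Finset.sum_insert (by decide), Finset.sum_singleton]
  rw [key 1 0 1 2 (by decide) (by decide) (by decide),
    key (Equiv.swap 0 1) 1 0 2 (by decide) (by decide) (by decide),
    key (Equiv.swap 1 2) 0 2 1 (by decide) (by decide) (by decide),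
    key (Equiv.swap 0 2) 2 1 0 (by decide) (by decide) (by decide),
    key (Equiv.swap 0 1 * Equiv.swap 1 2) 1 2 0 (by decide) (by decide) (by decide),
    key (Equiv.swap 1 2 * Equiv.swap 0 1) 2 0 1 (by decide) (by decide) (by decide)]
  ring

theorem pers_g3 {p q r : ℝ} (h : 0 < p + q + r) :
    pers g3 ![p, q, r] = (p + q + r) / 3 * gg p q r := by
  unfold pers
  rw [g3_eq_gg (x := ![p, q, r]) (by simpa using h)]
  simp [mean3]

theorem pers_S3 {p q r : ℝ} (h : 0 < p + q + r) :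
    pers S3 ![p, q, r] = (p + q + r) / 3 * sg p q r := by
  unfold pers
  rw [S3_eq_sg (x := ![p, q, r]) (by simpa using h)]
  simp [mean3]

theorem g3_mean1 {a : Fin 3 → ℝ} (ha : ∀ i, 0 < a i) (hm : mean3 a = 1) :
    g3 (fun i => a i - 1) = gg (a 0) (a 1) (a 2) := by
  have h : 0 < a 0 + a 1 + a 2 := by linarith [ha 0, ha 1, ha 2]
  rw [← g3_eq_gg h, hm]
  simp only [div_one]

theorem S3_mean1 {a : Fin 3 → ℝ} (ha : ∀ i, 0 < a i) (hm : mean3 a = 1) :
    S3 (fun i => a i - 1) = sg (a 0) (a 1) (a 2) := by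
  have h : 0 < a 0 + a 1 + a 2 := by linarith [ha 0, ha 1, ha 2]
  rw [← S3_eq_sg h, hm]
  simp only [div_one]

theorem ineqI : IneqI := by
  apply ineqI_of_pos
  intro a b ha hb ma mb
  rw [g3_mean1 ha ma, g3_mean1 hb mb, S3_mean1 ha ma, S3_mean1 hb mb, sum_perm3]
  have a0 := ha 0; have a1 := ha 1; have a2 := ha 2
  have b0 := hb 0; have b1 := hb 1; have b2 := hb 2
  have sa : a 0 + a 1 + a 2 = 3 := by unfold mean3 at ma; linarith
  have sb : b 0 + b 1 + b 2 = 3 := by unfold mean3 at mb; linarith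
  have m1 := (MI_all a0 a1 a2 b0 b1 b2).1
  have m2 := (MI_all a0 a1 a2 b0 b2 b1).1
  rw [pers_g3 (by positivity), pers_g3 (by positivity), pers_g3 (by positivity),
    pers_g3 (by positivity), pers_g3 (by positivity), pers_g3 (by positivity)]
  have sb' : b 0 + b 2 + b 1 = 3 := by linarith
  rw [sa, sb] at m1
  rw [sa, sb'] at m2
  have hs : sg (b 0) (b 2) (b 1) = sg (b 0) (b 1) (b 2) := by
    rw [← sg_rev (b 0) (b 1) (b 2), ← sg_rot (b 2) (b 1) (b 0), ← sg_rot (b 1) (b 0) (b 2)]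
  have hg : gg (b 0) (b 2) (b 1) = gg (b 0) (b 1) (b 2) := by
    rw [← gg_rev (b 0) (b 1) (b 2), ← gg_rot (b 2) (b 1) (b 0), ← gg_rot (b 1) (b 0) (b 2)]
  rw [hs, hg] at m2
  unfold RG at m1 m2
  linarith

theorem ineqII : IneqII (1 / 100) := by
  apply ineqII_of_pos
  intro a b ha hb ma mb
  rw [g3_mean1 ha ma, g3_mean1 hb mb, S3_mean1 ha ma, S3_mean1 hb mb, sum_perm3]
  have a0 := ha 0; have a1 := ha 1; have a2 := ha 2
  have b0 := hb 0; have b1 := hb 1; have b2 := hb 2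
  have sa : a 0 + a 1 + a 2 = 3 := by unfold mean3 at ma; linarith
  have sb : b 0 + b 1 + b 2 = 3 := by unfold mean3 at mb; linarith
  have m1 := (MI_all a0 a1 a2 b0 b1 b2).2
  have m2 := (MI_all a0 a1 a2 b0 b2 b1).2
  rw [pers_S3 (by positivity), pers_S3 (by positivity), pers_S3 (by positivity),
    pers_S3 (by positivity), pers_S3 (by positivity), pers_S3 (by positivity)]
  have sb' : b 0 + b 2 + b 1 = 3 := by linarith
  rw [sa, sb] at m1
  rw [sa, sb'] at m2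
  have hs : sg (b 0) (b 2) (b 1) = sg (b 0) (b 1) (b 2) := by
    rw [← sg_rev (b 0) (b 1) (b 2), ← sg_rot (b 2) (b 1) (b 0), ← sg_rot (b 1) (b 0) (b 2)]
  have hg : gg (b 0) (b 2) (b 1) = gg (b 0) (b 1) (b 2) := by
    rw [← gg_rev (b 0) (b 1) (b 2), ← gg_rot (b 2) (b 1) (b 0), ← gg_rot (b 1) (b 0) (b 2)]
  rw [hs, hg] at m2
  unfold RS at m1 m2
  linarith

end Vale.Agent.H23.Potts
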