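import Vale.Agent.H23.Potts.CertII

/-
Merge inequalities for the three state Potts model, real form.
-/

namespace Vale.Agent.H23.Potts

/-- quadratic form -/
def rq2 (a b c : ℝ) : ℝ := (a * a + b * b + c * c) + -(a * b + b * c + c * a)
/-- cubic form -/
def rc3 (a b c : ℝ) : ℝ :=
  ((3 * a + -(a + b + c)) * (3 * b + -(a + b + c))) * (3 * c + -(a + b + c))
/-- numerator -/
def rnum (a b c : ℝ) : ℝ := (25 * rc3 a b c) * (a + b + c) + -(37 * (rq2 a b c * rq2 a b c))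
/-- left side -/
def rL (x0 x1 x2 y0 y1 y2 : ℝ) : ℝ :=
  rnum (x0 * y0) (x1 * y1) (x2 * y2) *
      ((x0 * y1 + x1 * y2 + x2 * y0) * (x0 * y1 + x1 * y2 + x2 * y0) *
        (x0 * y1 + x1 * y2 + x2 * y0) *
      ((x0 * y2 + x1 * y0 + x2 * y1) * (x0 * y2 + x1 * y0 + x2 * y1) *
        (x0 * y2 + x1 * y0 + x2 * y1))) +
    rnum (x0 * y1) (x1 * y2) (x2 * y0) *
      ((x0 * y2 + x1 * y0 + x2 * y1) * (x0 * y2 + x1 * y0 + x2 * y1) *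
        (x0 * y2 + x1 * y0 + x2 * y1) *
      ((x0 * y0 + x1 * y1 + x2 * y2) * (x0 * y0 + x1 * y1 + x2 * y2) *
        (x0 * y0 + x1 * y1 + x2 * y2))) +
    rnum (x0 * y2) (x1 * y0) (x2 * y1) *
      ((x0 * y0 + x1 * y1 + x2 * y2) * (x0 * y0 + x1 * y1 + x2 * y2) *
        (x0 * y0 + x1 * y1 + x2 * y2) *
      ((x0 * y1 + x1 * y2 + x2 * y0) * (x0 * y1 + x1 * y2 + x2 * y0) *
        (x0 * y1 + x1 * y2 + x2 * y0)))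
/-- denominators -/
def rD (x0 x1 x2 y0 y1 y2 : ℝ) : ℝ :=
  ((x0 * y0 + x1 * y1 + x2 * y2) * (x0 * y0 + x1 * y1 + x2 * y2) *
    (x0 * y0 + x1 * y1 + x2 * y2)) *
  ((x0 * y1 + x1 * y2 + x2 * y0) * (x0 * y1 + x1 * y2 + x2 * y0) *
    (x0 * y1 + x1 * y2 + x2 * y0)) *
  ((x0 * y2 + x1 * y0 + x2 * y1) * (x0 * y2 + x1 * y0 + x2 * y1) *
    (x0 * y2 + x1 * y0 + x2 * y1))
/-- fifth power -/
def rfi (a : ℝ) : ℝ := (a * a) * (a * a * a)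
/-- right side term -/
def rR (x0 x1 x2 y0 y1 y2 : ℝ) : ℝ :=
  (((y0 + y1 + y2) * (y0 + y1 + y2) + -rq2 y0 y1 y2) *
    ((y0 + y1 + y2) * (y0 + y1 + y2) + -rq2 y0 y1 y2) *
    ((y0 + y1 + y2) * (y0 + y1 + y2) + -rq2 y0 y1 y2)) * rnum x0 x1 x2 *
    ((x0 + x1 + x2) * (x0 + x1 + x2))
/-- whole -/
def rI (x0 x1 x2 y0 y1 y2 : ℝ) : ℝ :=
  (rfi (x0 + x1 + x2) * rfi (y0 + y1 + y2)) * rL x0 x1 x2 y0 y1 y2 +
    -((rR x0 x1 x2 y0 y1 y2 + rR y0 y1 y2 x0 x1 x2) * rD x0 x1 x2 y0 y1 y2)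

theorem evR_pI (v : Fin 4 → ℝ) (a0 a1 a2 b0 b1 b2 : PE 4) :
    PE.evR v (pI a0 a1 a2 b0 b1 b2) =
      rI (PE.evR v a0) (PE.evR v a1) (PE.evR v a2) (PE.evR v b0) (PE.evR v b1)
        (PE.evR v b2) := by
  simp only [pI, pL, pD, pR, pfi, pnum, pc3, pq2, ps3, pcu, psq, psub, PE.evR, rI, rL, rD, rR,
    rfi, rnum, rc3, rq2, Int.cast_ofNat]

theorem evR_e (q r s t : ℝ) : PE.evR ![q, r, s, t] e0 = 1 + q + r ∧
    PE.evR ![q, r, s, t] e1 = 1 + q ∧ PE.evR ![q, r, s, t] e2 = 1 ∧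
    PE.evR ![q, r, s, t] f0 = 1 + s + t ∧ PE.evR ![q, r, s, t] f1 = 1 + s ∧
    PE.evR ![q, r, s, t] f2 = 1 := by
  simp [e0, e1, e2, f0, f1, f2, PE.evR]

theorem rI_nonneg (q r s t : ℝ) (hq : 0 ≤ q) (hr : 0 ≤ r) (hs : 0 ≤ s) (ht : 0 ≤ t) :
    0 ≤ rI (1 + q + r) (1 + q) 1 (1 + s + t) (1 + s) 1 ∧
    0 ≤ rI (1 + q + r) (1 + q) 1 1 (1 + s) (1 + s + t) := by
  have hv : ∀ i, 0 ≤ (![q, r, s, t] : Fin 4 → ℝ) i := by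
    intro i; fin_cases i <;> simpa
  obtain ⟨h0, h1, h2, h3, h4, h5⟩ := evR_e q r s t
  constructor
  · have := PE.evR_nonneg _ _ _ pI_chk1 _ hv
    rwa [evR_pI, h0, h1, h2, h3, h4, h5] at this
  · have := PE.evR_nonneg _ _ _ pI_chk2 _ hv
    rwa [evR_pI, h0, h1, h2, h3, h4, h5] at this

/-- bracket -/
def rB (x0 x1 x2 y0 y1 y2 : ℝ) : ℝ :=
  ((100 * (((x0 + x1 + x2) * (x0 + x1 + x2)) * ((y0 + y1 + y2) * (y0 + y1 + y2)))) *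
      (rq2 x0 x1 x2 * ((y0 + y1 + y2) * (y0 + y1 + y2)) +
        rq2 y0 y1 y2 * ((x0 + x1 + x2) * (x0 + x1 + x2))) +
    -(3 * ((rnum x0 x1 x2 * rq2 y0 y1 y2) * ((y0 + y1 + y2) * (y0 + y1 + y2)) +
        (rnum y0 y1 y2 * rq2 x0 x1 x2) * ((x0 + x1 + x2) * (x0 + x1 + x2))))) +
    -((rq2 x0 x1 x2 * rq2 y0 y1 y2) *
      (((x0 + x1 + x2) * (x0 + x1 + x2)) * ((y0 + y1 + y2) * (y0 + y1 + y2))))
/-- product of normalisations -/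
def rZ (x0 x1 x2 y0 y1 y2 : ℝ) : ℝ :=
  (x0 * y0 + x1 * y1 + x2 * y2) * (x0 * y1 + x1 * y2 + x2 * y0) * (x0 * y2 + x1 * y0 + x2 * y1)
/-- sum over rotations -/
def rT (x0 x1 x2 y0 y1 y2 : ℝ) : ℝ :=
  rq2 (x0 * y0) (x1 * y1) (x2 * y2) *
      ((x0 * y1 + x1 * y2 + x2 * y0) * (x0 * y2 + x1 * y0 + x2 * y1)) +
    rq2 (x0 * y1) (x1 * y2) (x2 * y0) *
      ((x0 * y2 + x1 * y0 + x2 * y1) * (x0 * y0 + x1 * y1 + x2 * y2)) +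
    rq2 (x0 * y2) (x1 * y0) (x2 * y1) *
      ((x0 * y0 + x1 * y1 + x2 * y2) * (x0 * y1 + x1 * y2 + x2 * y0))
/-- whole -/
def rII (x0 x1 x2 y0 y1 y2 : ℝ) : ℝ :=
  rB x0 x1 x2 y0 y1 y2 * rZ x0 x1 x2 y0 y1 y2 +
    -((100 * (((x0 + x1 + x2) * (x0 + x1 + x2) * (x0 + x1 + x2)) *
        ((y0 + y1 + y2) * (y0 + y1 + y2) * (y0 + y1 + y2)))) * rT x0 x1 x2 y0 y1 y2)

theorem evR_pII0 (v : Fin 4 → ℝ) (a0 a1 a2 b0 b1 b2 : PE 4) :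
    PE.evR v (pII0 a0 a1 a2 b0 b1 b2) =
      rII (PE.evR v a0) (PE.evR v a1) (PE.evR v a2) (PE.evR v b0) (PE.evR v b1)
        (PE.evR v b2) := by
  simp only [pII0, pB, pZ, pT, pnum, pc3, pq2, ps3, pcu, psq, psub, PE.evR, rII, rB, rZ, rT,
    rnum, rc3, rq2, Int.cast_ofNat]

theorem evR_pII (v : Fin 4 → ℝ) (a0 a1 a2 b0 b1 b2 : PE 4) :
    PE.evR v (pII a0 a1 a2 b0 b1 b2) =
      ((PE.evR v a0 + PE.evR v a1 + PE.evR v a2) ^ 9 *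
        (PE.evR v b0 + PE.evR v b1 + PE.evR v b2) ^ 9) *
      rII (PE.evR v a0) (PE.evR v a1) (PE.evR v a2) (PE.evR v b0) (PE.evR v b1)
        (PE.evR v b2) := by
  rw [← evR_pII0]
  simp only [pII, pcu, ps3, PE.evR]
  ring

theorem rII_nonneg (q r s t : ℝ) (hq : 0 ≤ q) (hr : 0 ≤ r) (hs : 0 ≤ s) (ht : 0 ≤ t) :
    0 ≤ rII (1 + q + r) (1 + q) 1 (1 + s + t) (1 + s) 1 ∧
    0 ≤ rII (1 + q + r) (1 + q) 1 1 (1 + s) (1 + s + t) := by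
  have hv : ∀ i, 0 ≤ (![q, r, s, t] : Fin 4 → ℝ) i := by
    intro i; fin_cases i <;> simpa
  obtain ⟨h0, h1, h2, h3, h4, h5⟩ := evR_e q r s t
  constructor
  · have := PE.evR_nonneg _ _ _ pII_chk1 _ hv
    rw [evR_pII, h0, h1, h2, h3, h4, h5] at this
    exact (mul_nonneg_iff_of_pos_left (by positivity)).mp this
  · have := PE.evR_nonneg _ _ _ pII_chk2 _ hv
    rw [evR_pII, h0, h1, h2, h3, h4, h5] at this
    exact (mul_nonneg_iff_of_pos_left (by positivity)).mp this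

end Vale.Agent.H23.Potts
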